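import Vale.Agent.H35.SepQuot.ThreeSpace

namespace Vale.Agent.Results.P129.A_ThreeSpace

open Vale.Agent.H35.SepQuot

/-- Three-space theorem for the separable quotient property: if a Banach space `X` (real or
complex) has a separable infinite-dimensional quotient and `Y` is a closed subspace of `X`,
then `Y` or `X ⧸ Y` has a separable infinite-dimensional quotient. -/
theorem result {𝕜 X : Type*} [RCLike 𝕜] [NormedAddCommGroup X] [NormedSpace 𝕜 X]
    [CompleteSpace X] (Y : Submodule 𝕜 X) (hY : IsClosed (Y : Set X)) :
    HasSepQuotient 𝕜 X → HasSepQuotient 𝕜 Y ∨ HasSepQuotient 𝕜 (X ⧸ Y) :=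
  threeSpace Y hY

end Vale.Agent.Results.P129.A_ThreeSpace
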