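import Vale.Agent.H35.SepQuot.ThreeSpace

/-!
P129 (separable quotient problem): the three-space theorem together with the two criteria
it rests on, for a real or complex Banach space `X`.

1. Three-space theorem: if `X` has a separable infinite-dimensional quotient and `Y` is a
   closed subspace of `X`, then `Y` or `X ⧸ Y` has one.
2. `X` has a separable infinite-dimensional quotient if and only if `X` has an increasing
   sequence of closed proper subspaces with dense union.
3. If some Banach space `Z` admits a bounded linear operator into `X` with dense range that is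
   not onto, then `X` has a separable infinite-dimensional quotient.
-/

namespace Vale.Agent.Results.P129.B_ThreeSpaceAndCriteria

open Vale.Agent.H35.SepQuot

theorem result {𝕜 X : Type*} [RCLike 𝕜] [NormedAddCommGroup X] [NormedSpace 𝕜 X]
    [CompleteSpace X] :
    (∀ Y : Submodule 𝕜 X, IsClosed (Y : Set X) →
      HasSepQuotient 𝕜 X → HasSepQuotient 𝕜 Y ∨ HasSepQuotient 𝕜 (X ⧸ Y)) ∧
    (HasSepQuotient 𝕜 X ↔
      ∃ W : ℕ → Submodule 𝕜 X, Monotone W ∧ (∀ n, IsClosed (W n : Set X)) ∧
        (∀ n, W n ≠ ⊤) ∧ Dense (⋃ n, (W n : Set X))) ∧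
    (∀ (Z : Type*) [NormedAddCommGroup Z] [NormedSpace 𝕜 Z] [CompleteSpace Z]
      (A : Z →L[𝕜] X), DenseRange A → ¬ Function.Surjective A → HasSepQuotient 𝕜 X) := by
  refine ⟨fun Y hY h => threeSpace Y hY h, ⟨fun h => exists_chain_of_hasSepQuotient h, ?_⟩, ?_⟩
  · rintro ⟨W, hmono, hcl, hne, hd⟩
    exact hasSepQuotient_of_chain W hmono hcl hne hd
  · intro Z _ _ _ A hd hns
    exact hasSepQuotient_of_denseRange_not_surjective A hd hns

end Vale.Agent.Results.P129.B_ThreeSpaceAndCriteria
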